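import Vale.Agent.P195.Main

open CategoryTheory

theorem Vale.Agent.Results.P195.A_full.result :
    ∃ (k : Type) (_ : Field k) (R : Type) (_ : Ring R) (_ : Algebra k R),
      FiniteDimensional k R ∧
      ∃ (M : Type) (_ : AddCommGroup M) (_ : Module R M), Module.Finite R M ∧
        (∀ i : ℕ, 1 ≤ i →
          Subsingleton (Abelian.Ext (ModuleCat.of R M) (ModuleCat.of R (M × R)) i) ∧
          Subsingleton (Abelian.Ext (ModuleCat.of R M) (ModuleCat.of R M) i) ∧
          Subsingleton (Abelian.Ext (ModuleCat.of R M) (ModuleCat.of R R) i)) ∧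
        ¬ Module.Projective R M :=
  Vale.Agent.P195.counterexample
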